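import Vale.Agent.P061.Main

open Vale.Agent.P061

theorem Vale.Agent.Results.P061.Treewidth.result (w : ℕ) :
    ∃ C : ℝ, ∀ (V E : Type) [Fintype V] [Fintype E] (ends : E → Sym2 V) (k : ℕ),
      (∀ e, ¬ (ends e).IsDiag) → 2 ≤ Fintype.card V → 1 ≤ k → TreewidthLE ends w →
      (∀ S : Finset V, S.Nonempty → S ≠ Finset.univ → k ≤ (cut ends Finset.univ S).card) →
      ∃ T : Finset E, IsSpanningTree ends T ∧ ∀ S : Finset V, S.Nonempty → S ≠ Finset.univ →
        ((cut ends T S).card : ℝ) ≤ C / k * (cut ends Finset.univ S).card :=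
  main w
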